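import Vale.Agent.P043.Real
import Vale.Agent.P043.Three2

open MeasureTheory Vale.Agent.P043

theorem Vale.Agent.Results.P043.Dim3.result (d : ℕ) (hd : 3 ≤ d) :
    (∃ F : Finset (Fin d → ℤ), F.Nonempty ∧ (∃ A, IsTiling A F) ∧
      ∀ A, IsTiling A F → ¬ IsPeriodic A) ∧
    (∃ Ω : Set (Fin d → ℝ), Bornology.IsBounded Ω ∧ MeasurableSet Ω ∧ 0 < volume Ω ∧
      (∃ A, IsTilingR A Ω) ∧ ∀ A, IsTilingR A Ω → ¬ IsPeriodicR A) := by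
  obtain ⟨F, hF⟩ := exists_rigidTile_three d hd
  exact ⟨⟨F, hF.1, hF.2.1, fun A hA hp => (hF.2.2 A hA).1 hp.per⟩, ⟨_, hF.real⟩⟩
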